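import Mathlib

set_option autoImplicit false

namespace Crest.Agent.R177.DetRedAux

open Finset

lemma alg_quot {Q : Type} [Ring Q] (E f X Y v M : Q) (hE : E * E = E) (hEf : E * f = 0)
    (hXf : X * f = X) (hfY : f * Y = Y) (hXY : E * (X * Y) * E = E + M) (hM : M * E = M)
    (hv : v * (1 + M) = 1) :
    E * ((1 - E * v * E * X) * ((1 + Y * E) * (1 - f))) = 0 := by
  have h1 : E * Y = 0 := by rw [← hfY, ← mul_assoc, hEf, zero_mul]
  have h2 : E * v * E * X * (Y * E) = E := by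
    calc E * v * E * X * (Y * E) = E * v * (E * (X * Y) * E) := by simp only [mul_assoc]
      _ = E * (v * (1 + M)) * E := by
        rw [hXY]; nth_rewrite 1 [← hM]; noncomm_ring
      _ = E := by rw [hv, mul_one, hE]
  have h3 : E * v * E * X * f = E * v * E * X := by rw [mul_assoc, hXf]
  generalize E * v * E * X = Z at h2 h3
  have h4 : Y * E * f = 0 := by rw [mul_assoc, hEf, mul_zero]
  have h5 : E * (Y * E) = 0 := by rw [← mul_assoc, h1, zero_mul]
  generalize Y * E = W at h2 h4 h5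
  have : E * ((1 - Z) * ((1 + W) * (1 - f))) =
      E - E * f + E * W - E * (W * f) - E * Z + E * (Z * f) - E * (Z * W) + E * (Z * (W * f)) := by
    noncomm_ring
  rw [this, hEf, h5, h4, h3, h2, hE]
  simp

lemma alg {T : Type} [Ring T] (p : ℤ) (s : ℕ) (E f X Y K : T)
    (hE : E * E = (1 - p ^ s) • E) (hfE : f * E = 0) (hEf : E * f = 0) (hXf : X * f = X)
    (hfY : f * Y = Y) (hXY : X * Y = E + p • K) :
    ∃ X' Y' A : T, X' * f = X' ∧ f * X' = 0 ∧ f * Y' = Y' ∧ Y' * f = 0 ∧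
      (p ^ s) • A = ((p ^ s) • 1 + E) * ((1 - X') * ((1 + Y') * (1 + (p ^ s - 1) • f))) := by
  let v : T := ∑ i ∈ range s, ((-p) • (E * K * E)) ^ i
  let I : Ideal T := Ideal.span {((p ^ s : ℤ) : T)}
  have : I.IsTwoSided := ⟨fun {a} b ha => by
    obtain ⟨c, rfl⟩ := Ideal.mem_span_singleton'.1 ha
    exact Ideal.mem_span_singleton'.2 ⟨c * b, by rw [mul_assoc, mul_assoc, Int.cast_comm]⟩⟩
  let φ := Ideal.Quotient.mk I
  have hP : ∀ x : T ⧸ I, (p ^ s) • x = 0 := fun x => by
    have : ((p ^ s : ℤ) : T ⧸ I) = 0 := by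
      rw [← map_intCast φ]
      exact Ideal.Quotient.eq_zero_iff_mem.2 (Ideal.mem_span_singleton_self _)
    rw [zsmul_eq_mul, this, zero_mul]
  have hE' : φ E * φ E = φ E := by
    rw [← map_mul, hE, map_zsmul, sub_smul, hP, one_smul, sub_zero]
  have key := alg_quot (φ E) (φ f) (φ X) (φ Y) (φ v) (p • (φ E * φ K * φ E)) hE'
    (by rw [← map_mul, hEf, map_zero]) (by rw [← map_mul, hXf]) (by rw [← map_mul, hfY])
    (by rw [← map_mul φ X, hXY, map_add, map_zsmul, mul_add, add_mul, hE', hE', mul_smul_comm,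
      smul_mul_assoc])
    (by rw [smul_mul_assoc, mul_assoc, hE'])
    (by
      have := geom_sum_mul_neg ((-p) • (φ E * φ K * φ E)) s
      rw [smul_pow, neg_pow, mul_smul, hP, smul_zero, sub_zero, neg_smul, sub_neg_eq_add] at this
      simpa [v] using this)
  have : φ (((p ^ s) • 1 + E) * ((1 - E * v * E * X) * ((1 + Y * E) * (1 + (p ^ s - 1) • f)))) =
      0 := by
    simp only [map_mul, map_add, map_sub, map_zsmul, map_one, hP, zero_add, sub_smul, one_smul,
      zero_sub, ← sub_eq_add_neg]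
    exact key
  obtain ⟨A, hA⟩ := Ideal.mem_span_singleton'.1 (Ideal.Quotient.eq_zero_iff_mem.1 this)
  refine ⟨E * v * E * X, Y * E, A, by rw [mul_assoc, hXf], ?_, by rw [← mul_assoc, hfY],
    by rw [mul_assoc, hEf, mul_zero], ?_⟩
  · rw [← mul_assoc, ← mul_assoc, ← mul_assoc, hfE]; simp
  · rw [← hA, zsmul_eq_mul, Int.cast_comm]

end Crest.Agent.R177.DetRedAux
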