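import Crest.Agent.R177.DetRed.Lamp
import Crest.Agent.R177.DetRed.Alg

set_option autoImplicit false

namespace Crest.Agent.R177.DetRedAux

open MonoidAlgebra Finset

lemma sandwich {G Γ k : Type} [Group G] [Group Γ] [CommRing k] (ι : G →* Γ)
    (e : MonoidAlgebra k Γ) (he : e * e = e) (y : MonoidAlgebra k G)
    (hy : ∀ g ∈ y.coeff.support, g ≠ 1 → e * single (ι g) 1 * e = 0) :
    e * mapDomainRingHom k ι y * e = y.coeff 1 • e := by
  classical
  have h1 : mapDomainRingHom k ι y = ∑ g ∈ y.coeff.support, y.coeff g • single (ι g) 1 := by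
    nth_rewrite 1 [← sum_coeff_single y]
    rw [Finsupp.sum, map_sum]
    simp
  rw [h1, mul_sum, sum_mul, sum_eq_single 1]
  · rw [map_one ι, ← one_def, mul_smul_comm, smul_mul_assoc, mul_one, he]
  · intro g hg h
    rw [mul_smul_comm, smul_mul_assoc, hy g hg h, smul_zero]
  · intro h
    rw [Finsupp.notMem_support_iff.1 h]; simp

lemma ker3 {Γ : Type} [Group Γ] (x : MonoidAlgebra ℤ Γ)
    (hx : mapRingHom Γ (Int.castRingHom (ZMod 3)) x = 0) : ∃ k, x = (3 : ℤ) • k := by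
  refine ⟨.ofCoeff (x.coeff.mapRange (· / 3) (by simp)), ?_⟩
  ext g
  have := congrArg (fun y => y.coeff g) hx
  simp only [coeff_mapRingHom, eq_intCast, coeff_zero, Finsupp.zero_apply] at this
  have h3 : (3 : ℤ) ∣ x.coeff g := (ZMod.intCast_zmod_eq_zero_iff_dvd _ 3).1 this
  rw [coeff_smul_apply]
  simp [Int.mul_ediv_cancel' h3]

theorem lifted {G : Type} [Group G] (hG : Group.FG G) {a b c : MonoidAlgebra (ZMod 3) G}
    (hab : a * b = 1) (hac : a * c = 0) (hc : c ≠ 0) :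
    ∃ (Γ : Type) (_ : Group Γ) (s : ℕ) (e a b w z k₁ k₂ k₃ k₄ : MonoidAlgebra ℤ Γ),
      Group.FG Γ ∧ 1 ≤ s ∧ e * e = (1 - 3 ^ s : ℤ) • e ∧ e.coeff 1 < 0 ∧
      a * b = (1 - 3 ^ s : ℤ) • 1 + (3 : ℤ) • k₁ ∧ a * z = (3 : ℤ) • k₂ ∧ w * b = (3 : ℤ) • k₃ ∧
      w * z = e + (3 : ℤ) • k₄ := by
  classical
  have : Fact (Nat.Prime 3) := ⟨by norm_num⟩
  obtain ⟨g0, hg0⟩ : ∃ g, c.coeff g ≠ 0 := by
    by_contra! h
    exact hc (by ext g; simp [h])
  let y : MonoidAlgebra (ZMod 3) G := single g0⁻¹ 1 * c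
  have hy : y.coeff 1 = c.coeff g0 := by simp [y]
  obtain ⟨Γ, _, ι, u, n, hΓ, hu, hu1, huF⟩ :=
    exists_lamp hG (y.coeff.support.erase 1) (notMem_erase _ _)
  obtain ⟨s, hs, m, hm⟩ : ∃ s, 1 ≤ s ∧ ∃ m : ℤ, (1 - 3 ^ s : ℤ) = 2 ^ n * m := by
    refine ⟨Nat.totient (2 ^ n), Nat.totient_pos.2 (by positivity), ?_⟩
    have h := Nat.ModEq.pow_totient (x := 3) (n := 2 ^ n) (Nat.Coprime.pow_right _ (by norm_num))
    have := h.dvd
    push_cast at this
    exact this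
  have hm0 : m < 0 := by
    have h1 : (1 : ℤ) < 3 ^ s := one_lt_pow₀ (by norm_num) (by omega)
    by_contra! h
    have : (0 : ℤ) ≤ 2 ^ n * m := by positivity
    omega
  have hee : (m • u) * (m • u) = (1 - 3 ^ s : ℤ) • (m • u) := by
    rw [smul_mul_smul_comm, hu, hm, smul_smul, smul_smul]
    congr 1; ring
  let r := mapRingHom Γ (Int.castRingHom (ZMod 3))
  have hr : Function.Surjective r :=
    map_surjective (Int.castRingHom (ZMod 3)).toAddMonoidHom (ZMod.intCast_surjective)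
  have h3 : ∀ x : MonoidAlgebra (ZMod 3) Γ, (1 - 3 ^ s : ℤ) • x = x := fun x => by
    rw [← Int.cast_smul_eq_zsmul (ZMod 3)]
    have : ((1 - 3 ^ s : ℤ) : ZMod 3) = 1 := by
      push_cast
      rw [show (3 : ZMod 3) = 0 from rfl, zero_pow (by omega), sub_zero]
    rw [this, one_smul]
  obtain ⟨ε, hε⟩ : ∃ ε, ε = r (m • u) := ⟨_, rfl⟩
  have hεε : ε * ε = ε := by rw [hε, ← map_mul, hee, map_zsmul, h3]
  let j := mapDomainRingHom (ZMod 3) ι
  have hs' := sandwich ι ε hεε y (fun g hg h1 => by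
    have := congrArg r (huF g (mem_erase.2 ⟨h1, hg⟩))
    rw [map_mul, map_mul, map_zero, mapRingHom_single, map_one] at this
    rw [hε, map_zsmul, smul_mul_assoc, smul_mul_smul_comm, this, smul_zero])
  obtain ⟨a', ha'⟩ := hr (j a)
  obtain ⟨b', hb'⟩ := hr (j b)
  obtain ⟨z', hz'⟩ := hr (j c * ε)
  obtain ⟨w', hw'⟩ := hr ((c.coeff g0)⁻¹ • (ε * j (single g0⁻¹ 1 * (1 - b * a))))
  obtain ⟨k₁, h₁⟩ := ker3 (a' * b' - (1 - 3 ^ s : ℤ) • 1) (by
    change r _ = 0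
    rw [map_sub, map_mul, ha', hb', map_zsmul, h3, ← map_mul, hab, map_one, map_one, sub_self])
  obtain ⟨k₂, h₂⟩ := ker3 (a' * z') (by
    change r _ = 0
    rw [map_mul, ha', hz', ← mul_assoc, ← map_mul, hac, map_zero, zero_mul])
  obtain ⟨k₃, h₃⟩ := ker3 (w' * b') (by
    change r _ = 0
    rw [map_mul, hw', hb', smul_mul_assoc, mul_assoc, ← map_mul, mul_assoc, sub_mul, mul_assoc,
      hab]
    simp)
  obtain ⟨k₄, h₄⟩ := ker3 (w' * z' - m • u) (by
    change r _ = 0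
    rw [map_sub, map_mul, hw', hz', ← hε, smul_mul_assoc, ← mul_assoc, mul_assoc ε, ← map_mul,
      mul_assoc (single _ _), sub_mul, mul_assoc b, hac, mul_zero, one_mul, sub_zero]
    rw [hs', hy, smul_smul, inv_mul_cancel₀ hg0, one_smul, sub_self])
  refine ⟨Γ, inferInstance, s, m • u, a', b', w', z', k₁, k₂, k₃, k₄, hΓ, hs, hee, ?_,
    by rw [← h₁]; abel, h₂, h₃, by rw [← h₄]; abel⟩
  rw [coeff_smul_apply, hu1]
  simpa using hm0

end Crest.Agent.R177.DetRedAux
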