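import Mathlib

set_option autoImplicit false

namespace Crest.Agent.R177.DetRedAux

open MonoidAlgebra Finset

variable {G : Type} [Group G]

/-- lamp configurations -/
abbrev Lam (G : Type) : Type := Multiplicative (G →₀ ZMod 2)

/-- translation action on lamp configurations -/
noncomputable def act (G : Type) [Group G] : G →* MulAut (Lam G) where
  toFun g := AddEquiv.toMultiplicative (Finsupp.domCongr (Equiv.mulLeft g))
  map_one' := by
    ext x h
    simp [Finsupp.equivMapDomain_apply, -Equiv.mulLeft_one]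
  map_mul' g k := by
    ext x h
    simp [Finsupp.equivMapDomain_apply, mul_assoc, -Equiv.mulLeft_mul]

/-- a single lamp -/
noncomputable def lamp (h : G) : Lam G := Multiplicative.ofAdd (Finsupp.single h 1)

lemma act_lamp (g h : G) : act G g (lamp h) = lamp (g * h) := by
  simp [act, lamp]

omit [Group G] in
lemma lamp_mul (h : G) : lamp h * lamp h = 1 := by
  rw [lamp, ← ofAdd_add, ← Finsupp.single_add]
  have : (1 : ZMod 2) + 1 = 0 := by decide
  simp [this]

lemma fg_lamp (hG : Group.FG G) : Group.FG (Lam G ⋊[act G] G) := by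
  classical
  obtain ⟨S, hS, hfin⟩ := Group.fg_iff.1 hG
  refine Group.fg_iff.2 ⟨insert (SemidirectProduct.inl (lamp 1)) (SemidirectProduct.inr '' S), ?_,
    (hfin.image _).insert _⟩
  set H := Subgroup.closure (insert (SemidirectProduct.inl (lamp 1) : Lam G ⋊[act G] G)
    (SemidirectProduct.inr '' S)) with hH
  have h1 : ∀ g : G, (SemidirectProduct.inr g : Lam G ⋊[act G] G) ∈ H := fun g => by
    have hg : g ∈ Subgroup.closure S := hS ▸ Subgroup.mem_top g
    have := Subgroup.mem_map_of_mem (SemidirectProduct.inr : G →* Lam G ⋊[act G] G) hg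
    rw [MonoidHom.map_closure] at this
    exact Subgroup.closure_mono (Set.subset_insert _ _) this
  have h2 : ∀ g : G, (SemidirectProduct.inl (lamp g) : Lam G ⋊[act G] G) ∈ H := fun g => by
    have := act_lamp g 1
    rw [mul_one] at this
    rw [← this, SemidirectProduct.inl_aut]
    exact H.mul_mem (H.mul_mem (h1 _) (Subgroup.subset_closure (Set.mem_insert _ _))) (h1 _)
  have h3 : ∀ x : G →₀ ZMod 2,
      (SemidirectProduct.inl (Multiplicative.ofAdd x) : Lam G ⋊[act G] G) ∈ H := fun x => by
    induction x using Finsupp.induction_linear with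
    | zero => simp
    | add f g hf hg => rw [ofAdd_add, map_mul]; exact H.mul_mem hf hg
    | single a b =>
      have : b = 0 ∨ b = 1 := by revert b; decide
      rcases this with rfl | rfl
      · simp
      · exact h2 a
  rw [eq_top_iff]
  intro x _
  rw [← SemidirectProduct.inl_left_mul_inr_right x]
  exact H.mul_mem (h3 _) (h1 _)

omit [Group G] in
lemma coeff_prod (ε : G → ℤ) (S : Finset G) :
    (∀ x : Lam G, (∃ h ∉ S, Multiplicative.toAdd x h ≠ 0) →
      (∏ h ∈ S, (1 + single (lamp h) (ε h) : MonoidAlgebra ℤ (Lam G))).coeff x = 0) ∧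
    (∏ h ∈ S, (1 + single (lamp h) (ε h) : MonoidAlgebra ℤ (Lam G))).coeff 1 = 1 := by
  classical
  induction S using Finset.induction_on with
  | empty =>
    refine ⟨fun x ⟨h, _, hx⟩ => ?_, by simp [one_def]⟩
    have : x ≠ 1 := by rintro rfl; simp at hx
    simp [one_def, this.symm]
  | insert a S ha ih =>
    rw [prod_insert ha, add_mul, one_mul]
    refine ⟨fun x ⟨h, hh, hx⟩ => ?_, ?_⟩
    · rw [mem_insert, not_or] at hh
      rw [coeff_add, Finsupp.add_apply, coeff_single_mul_apply, ih.1 x ⟨h, hh.2, hx⟩,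
        ih.1 _ ⟨h, hh.2, ?_⟩]
      · simp
      · simpa [lamp, Finsupp.single_apply, Ne.symm hh.1] using hx
    · rw [coeff_add, Finsupp.add_apply, coeff_single_mul_apply, ih.2, ih.1 _ ⟨a, ha, ?_⟩]
      · simp
      · simp [lamp]

theorem exists_lamp (hG : Group.FG G) (F : Finset G) (h1 : (1 : G) ∉ F) :
    ∃ (Γ : Type) (_ : Group Γ) (ι : G →* Γ) (u : MonoidAlgebra ℤ Γ) (n : ℕ), Group.FG Γ ∧
      u * u = (2 ^ n : ℤ) • u ∧ u.coeff 1 = 1 ∧ ∀ g ∈ F, u * single (ι g) 1 * u = 0 := by
  classical
  let ε : G → ℤ := fun h => if h = 1 then -1 else 1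
  have hε : ∀ h, ε h * ε h = 1 := fun h => by simp only [ε]; split_ifs <;> simp
  let j : MonoidAlgebra ℤ (Lam G) →+* MonoidAlgebra ℤ (Lam G ⋊[act G] G) :=
    mapDomainRingHom ℤ SemidirectProduct.inl
  let t : G → MonoidAlgebra ℤ (Lam G) := fun h => 1 + single (lamp h) (ε h)
  have ht : ∀ h, t h * t h = 2 * t h := fun h => by
    have : (single (lamp h) (ε h) : MonoidAlgebra ℤ (Lam G)) * single (lamp h) (ε h) = 1 := by
      rw [single_mul_single, lamp_mul, hε, one_def]
    simp only [t]
    linear_combination this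
  refine ⟨Lam G ⋊[act G] G, inferInstance, SemidirectProduct.inr, j (∏ h ∈ insert 1 F, t h),
    (insert 1 F).card, fg_lamp hG, ?_, ?_, fun g hg => ?_⟩
  · rw [← map_mul, ← prod_mul_distrib, prod_congr rfl fun h _ => ht h, prod_mul_distrib,
      prod_const, map_mul]
    simp [map_ofNat]
  · have := (coeff_prod ε (insert 1 F)).2
    rw [← map_one (SemidirectProduct.inl : Lam G →* Lam G ⋊[act G] G)]
    simp only [j, mapDomainRingHom_apply, coeff_mapDomain]
    rw [Finsupp.mapDomain_apply SemidirectProduct.inl_injective]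
    exact this
  · have hg1 : g ≠ 1 := fun h => h1 (h ▸ hg)
    have e1 : ∏ h ∈ insert 1 F, t h = (∏ h ∈ (insert 1 F).erase g, t h) * t g :=
      (prod_erase_mul _ _ (mem_insert_of_mem hg)).symm
    have e2 : ∏ h ∈ insert 1 F, t h = t 1 * ∏ h ∈ F, t h := prod_insert h1
    have e3 : single (SemidirectProduct.inr g) 1 * j (t 1) =
        j (1 - single (lamp g) 1) * single (SemidirectProduct.inr g) 1 := by
      have := act_lamp g 1
      rw [mul_one] at this
      simp only [t, j, ε, if_true, map_add, map_sub, map_one, mapDomainRingHom_apply,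
        mapDomain_single, mul_add, sub_mul, mul_one, one_mul, single_mul_single]
      rw [← this, SemidirectProduct.inl_aut, sub_eq_add_neg, ← single_neg]
      simp
    have e4 : t g * (1 - single (lamp g) 1) = 0 := by
      have : (single (lamp g) 1 : MonoidAlgebra ℤ (Lam G)) * single (lamp g) 1 = 1 := by
        rw [single_mul_single, lamp_mul, one_mul, one_def]
      simp only [t, ε, if_neg hg1]
      linear_combination -this
    nth_rewrite 1 [e1]
    rw [e2, map_mul, map_mul, mul_assoc, mul_assoc, ← mul_assoc (single _ _), e3, ← mul_assoc,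
      ← mul_assoc, ← mul_assoc, mul_assoc (j _) (j _) (j _), ← map_mul j (t g), e4]
    simp

end Crest.Agent.R177.DetRedAux
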